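import Vale.Agent.P207.N4.Dim
import Vale.Agent.P207.N5.H310.ProdJ
import Vale.Agent.P207.N5.H751.SB2
import Vale.Agent.P207.N5.H832.RateP

/-!
# P207, line N5: (PROD) from the 2-jet of the tensor at ONE frame
-/

set_option linter.unusedSectionVars false
set_option maxSynthPendingDepth 3

open Set Filter Topology Metric
open scoped ContDiff

noncomputable section

namespace Vale.Agent.P207.N4.V.H310

open Vale.Agent.P207.N3 Vale.Agent.P207.H751 Vale.Agent.P207.H686 Vale.Agent.P207.H310
open Vale.Agent.P207.H558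

variable [Dim]

variable {Γ X B : Type} [Group Γ] [MetricSpace X] [ProperSpace X] [MulAction Γ X]
  [IsIsometricSMul Γ X] [TopologicalSpace B] [CompactSpace B] [T2Space B] [MulAction Γ B]
  [ContinuousConstSMul Γ B]

variable {L : Leaf Γ X B} [MeasurableSpace B] [BorelSpace B] {V : Type}
  [NormedAddCommGroup V] [NormedSpace ℝ V] [FiniteDimensional ℝ V]

theorem pzd_act (P : Pic L V) (hR : P.RateP) {v : X} {A : E2 ≃L[ℝ] E2}
    {L' : Fm E2 ≃L[ℝ] Fm E2} {v' : X}
    (h : (H751.pzd P hR).St v A L' v') : L' = act A := h.2.2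

/-- (PROD) from a 2-jet of `Na` -/
theorem prod_of_jet_Na (P : Pic L V) {x : X} {R s C : ℝ} (hs : 2 < s) (hR : 0 < R)
    (h : HasJet R s C (P.Na x)) : P.Prod :=
  prod_of_zd P (H751.pzd P (H832.rateP P)) (fun h => pzd_act P _ h)
    (fun x _ hq s => H751.pr_eq P x (ball_subset_closedBall (ball_subset_ball (by norm_num) hq)) s)
    hs hR h

/-- **(PROD) from a 2-jet of `N0` at one frame** -/
theorem prod_of_jet (P : Pic L V) {x : X} {R s C : ℝ} (hs : 2 < s) (hs3 : s ≤ 3) (hR : 0 < R)
    (h : HasJet R s C (P.N0 x)) : P.Prod :=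
  prod_of_zd0 P (H751.pzd P (H832.rateP P)) (fun h => pzd_act P _ h)
    (fun x _ hq s => H751.pr_eq P x (ball_subset_closedBall (ball_subset_ball (by norm_num) hq)) s)
    hs hs3 hR h

end Vale.Agent.P207.N4.V.H310
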